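import Vale.Agent.P153H.Stmt
import Vale.Agent.P153.H4

/-! Approximation by local observables. -/

open MeasureTheory Filter Topology Set

noncomputable section

namespace Vale.Agent.P153H

open Vale.Agent.P153

theorem low_le : low ≤ (inferInstance : MeasurableSpace Cfg) :=
  Measurable.comap_le (measurable_pi_lambda _ fun x => measurable_pi_apply x.1)

theorem low_apply {x : ℤ × ℤ} (hx : x.2 ≤ 0) : Measurable[low] fun k : Cfg => k x :=
  (measurable_pi_apply (⟨x, hx⟩ : {x : ℤ × ℤ // x.2 ≤ 0})).comp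
    (comap_measurable fun (k : Cfg) (x : {x : ℤ × ℤ // x.2 ≤ 0}) => k x)

/-- A box of the lower half plane. -/
def ha_S (n : ℕ) : Finset (ℤ × ℤ) := Finset.Icc (-(n : ℤ)) n ×ˢ Finset.Icc (-(n : ℤ)) 0

theorem ha_mem {n : ℕ} {x : ℤ × ℤ} :
    x ∈ ha_S n ↔ (-(n : ℤ) ≤ x.1 ∧ x.1 ≤ n) ∧ -(n : ℤ) ≤ x.2 ∧ x.2 ≤ 0 := by
  simp only [ha_S, Finset.mem_product, Finset.mem_Icc]

/-- Restriction to the box. -/
def ha_r (n : ℕ) (k : Cfg) (x : ha_S n) : ℤ := k x

theorem ha_ap {n : ℕ} {x : ℤ × ℤ} (hx : x ∈ ha_S n) :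
    Measurable[MeasurableSpace.comap (ha_r n) inferInstance] fun k : Cfg => k x :=
  (measurable_pi_apply (⟨x, hx⟩ : ha_S n)).comp (comap_measurable (ha_r n))

/-- The filtration of the boxes. -/
def ha_F : Filtration ℕ (inferInstance : MeasurableSpace Cfg) where
  seq n := MeasurableSpace.comap (ha_r n) inferInstance
  mono' m n h := Measurable.comap_le
    (@measurable_pi_lambda _ _ _ (MeasurableSpace.comap (ha_r n) inferInstance) _ _ fun x =>
      ha_ap (ha_mem.2 (by have := ha_mem.1 x.2; omega)))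
  le' n := Measurable.comap_le (measurable_pi_lambda _ fun x => measurable_pi_apply x.1)

theorem ha_low : low ≤ ⨆ n, ha_F n :=
  Measurable.comap_le (@measurable_pi_lambda _ _ _ (⨆ n, ha_F n) _ _ fun x =>
    (ha_ap (n := x.1.1.natAbs + x.1.2.natAbs) (ha_mem.2 (by have := x.2; omega))).mono
      (le_iSup (fun n => ha_F n) _) le_rfl)

/-- Let `S n = Icc (-n) n ×ˢ Icc (-n) 0`, `ℱ n` the comap of the restriction `k ↦ (k x)_{x ∈ S n}`, a
`Filtration ℕ` with `low ≤ ⨆ n, ℱ n` (`MeasurableSpace.comap_iSup`, `comap_comp`). By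
`Integrable.tendsto_eLpNorm_condExp`, `condExp (ℱ n) P W → W` in `L¹`; it is bounded by `B`
(`ae_bdd_condExp_of_ae_bdd` or `condExp_mono`) and equals `g ∘ restrict`
(`StronglyMeasurable.factorsThrough` / `Measurable.exists_eq_measurable_comp`). Take
`F k = g (restrict fun x => k x - k 0)`, local in `S n ∋ 0`, equal to it when `k 0 = 0`. -/
theorem loc_approx {P : Measure Cfg} [IsProbabilityMeasure P] (h0 : ∀ᵐ k ∂P, k 0 = 0) {W : Cfg → ℝ}
    (hW : StronglyMeasurable[low] W) {B : ℝ} (hB : ∀ᵐ k ∂P, |W k| ≤ B) {ε : ℝ} (hε : 0 < ε) :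
    ∃ (S : Finset (ℤ × ℤ)) (F : Cfg → ℝ), Loc S F ∧ (∀ x ∈ S, x.2 ≤ 0) ∧
      (∀ᵐ k ∂P, |F k| ≤ B) ∧ ∫ k, |F k - W k| ∂P ≤ ε := by
  have hi : Integrable W P :=
    Integrable.of_bound (hW.mono low_le).aestronglyMeasurable B hB
  have ht := hi.tendsto_eLpNorm_condExp (ℱ := ha_F) (hW.mono ha_low)
  obtain ⟨n, hn⟩ := (ht.eventually (gt_mem_nhds (ENNReal.ofReal_pos.2 hε))).exists
  have hf : ∀ a b : Cfg, ha_r n a = ha_r n b → condExp (ha_F n) P W a = condExp (ha_F n) P W b :=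
    (stronglyMeasurable_condExp (m := ha_F n) (μ := P) (f := W)).factorsThrough
  have he : ∀ᵐ k ∂P, condExp (ha_F n) P W (fun x => k x - k 0) = condExp (ha_F n) P W k := by
    filter_upwards [h0] with k hk
    simp only [hk, sub_zero]
  refine ⟨ha_S n, fun k => condExp (ha_F n) P W fun x => k x - k 0, fun k k' e => ?_,
    fun x hx => (ha_mem.1 hx).2.2, ?_, ?_⟩
  · exact hf _ _ (funext fun x => e x x.2 0 (ha_mem.2 (by simp)))
  · filter_upwards [he, ae_bdd_abs_condExp_of_ae_bdd_abs (m := ha_F n) hB] with k h1 h2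
    rw [h1]
    exact h2
  · have h1 : ∫ k, |condExp (ha_F n) P W (fun x => k x - k 0) - W k| ∂P =
        ∫ k, ‖(condExp (ha_F n) P W - W) k‖ ∂P := by
      refine integral_congr_ae ?_
      filter_upwards [he] with k h1
      rw [h1]
      rfl
    rw [h1, integral_norm_eq_lintegral_enorm (integrable_condExp.sub hi).1,
      ← eLpNorm_one_eq_lintegral_enorm]
    exact ENNReal.toReal_le_of_le_ofReal hε.le hn.le

end Vale.Agent.P153H
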