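import Vale.Agent.P153H.HA
import Vale.Agent.P153.H1

/-! Cauchy-Schwarz for the reflection form. -/

open MeasureTheory Filter Topology Set

noncomputable section

namespace Vale.Agent.P153H

open Vale.Agent.P153

/-- The reflection form. -/
def rb (P : Measure Cfg) (X : Cfg → ℝ) : ℝ := ∫ k, X k * X (fun x => k (rfl0 x)) ∂P

variable {P : Measure Cfg} [IsProbabilityMeasure P] {S : Finset (ℤ × ℤ)} {X : Cfg → ℝ}

/-- `G k = F (k ∘ rfl0)` is local in the upper half (`Loc.map`), `F k = G (k ∘ rfl0)` (`rfl0_rfl0`).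
Expand `0 ≤ rb P (t X + G)` (`Good.rp`, `Good.rfl0` for the symmetry of the cross term, `Loc.int`),
`discrim_le_zero`, and `rb P G = ∫ G F ≤ ∫ (G ^ 2 + F ^ 2) / 2 = ∫ F ^ 2`. -/
theorem rp_cs (h : Good P) (hX : Loc S X) (hS : ∀ x ∈ S, 0 ≤ x.2) {S' : Finset (ℤ × ℤ)}
    {F : Cfg → ℝ} (hF : Loc S' F) (hS' : ∀ x ∈ S', x.2 ≤ 0) :
    (∫ k, X k * F k ∂P) ^ 2 ≤ rb P X * ∫ k, F k ^ 2 ∂P := by
  have hG := hF.map rfl0
  have hX' := hX.map rfl0
  have eR : ∀ k : Cfg, (fun x => k (rfl0 (rfl0 x))) = k := fun k =>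
    funext fun x => congrArg k (rfl0_rfl0 x)
  have i1 := (hX.comp₂ hX' (· * ·)).int h.lip
  have i2 := (hX.comp₂ hF (· * ·)).int h.lip
  have i3 := (hG.comp₂ hX' (· * ·)).int h.lip
  have i4 := (hG.comp₂ hF (· * ·)).int h.lip
  have i5 := (hF.comp (· ^ 2)).int h.lip
  have i6 := (hG.comp (· ^ 2)).int h.lip
  have e3 : ∫ k, (F fun x => k (rfl0 x)) * X (fun x => k (rfl0 x)) ∂P = ∫ k, X k * F k ∂P :=
    (h.rfl0 _ _ (hF.comp₂ hX (· * ·))).trans (by simp only [mul_comm])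
  have e6 : ∫ k, (F fun x => k (rfl0 x)) ^ 2 ∂P = ∫ k, F k ^ 2 ∂P := h.rfl0 _ _ (hF.comp (· ^ 2))
  have e4 : 2 * ∫ k, (F fun x => k (rfl0 x)) * F k ∂P ≤ 2 * ∫ k, F k ^ 2 ∂P := by
    rw [two_mul (∫ k, F k ^ 2 ∂P)]
    nth_rewrite 1 [← e6]
    rw [← integral_add i6 i5, ← integral_const_mul]
    refine integral_mono (i4.const_mul 2) (i6.add i5) fun k => ?_
    dsimp only
    nlinarith [sq_nonneg ((F fun x => k (rfl0 x)) - F k)]
  have key : ∀ t : ℝ, 0 ≤ rb P X * (t * t) + 2 * (∫ k, X k * F k ∂P) * t + ∫ k, F k ^ 2 ∂P := by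
    intro t
    have h1 := h.rp _ _ (hX.comp₂ hG fun a b => t * a + b) fun x hx => by
      rcases Finset.mem_union.1 hx with k | k
      · exact hS x k
      · obtain ⟨y, hy, rfl⟩ := Finset.mem_image.1 k
        exact neg_nonneg.2 (hS' y hy)
    have j1 : Integrable (fun k : Cfg => t * t * (X k * X fun x => k (rfl0 x)) + t * (X k * F k)) P :=
      (i1.const_mul _).add (i2.const_mul _)
    have j2 : Integrable (fun k : Cfg => t * t * (X k * X fun x => k (rfl0 x)) + t * (X k * F k) +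
        t * ((F fun x => k (rfl0 x)) * X fun x => k (rfl0 x))) P := j1.add (i3.const_mul _)
    have e : ∀ k : Cfg, (t * X k + F fun x => k (rfl0 x)) * (t * (X fun x => k (rfl0 x)) + F k) =
        t * t * (X k * X fun x => k (rfl0 x)) + t * (X k * F k) +
        t * ((F fun x => k (rfl0 x)) * X fun x => k (rfl0 x)) + (F fun x => k (rfl0 x)) * F k :=
      fun k => by ring
    simp only [eR, e] at h1
    rw [integral_add j2 i4, integral_add j1 (i3.const_mul _),
      integral_add (i1.const_mul _) (i2.const_mul _), integral_const_mul, integral_const_mul,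
      integral_const_mul, e3] at h1
    unfold rb
    linarith
  have h2 := discrim_le_zero key
  unfold discrim at h2
  linarith

theorem hb_lim {f : ℕ → Cfg → ℝ} {g : Cfg → ℝ} {d : ℕ → Cfg → ℝ} {C : ℝ} (hC : 0 ≤ C)
    (hf : ∀ n, Integrable (f n) P) (hg : Integrable g P) (hd : ∀ n, Integrable (d n) P)
    (h : ∀ n, ∀ᵐ k ∂P, |f n k - g k| ≤ C * d n k) (h' : ∀ n : ℕ, ∫ k, d n k ∂P ≤ 1 / (n + 1)) :
    Tendsto (fun n => ∫ k, f n k ∂P) atTop (𝓝 (∫ k, g k ∂P)) := by
  have h1 := (tendsto_one_div_add_atTop_nhds_zero_nat (𝕜 := ℝ)).const_mul C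
  rw [mul_zero] at h1
  refine tendsto_iff_norm_sub_tendsto_zero.2 (squeeze_zero (fun _ => norm_nonneg _) (fun n => ?_) h1)
  refine le_trans ?_ (mul_le_mul_of_nonneg_left (h' n) hC)
  rw [← integral_sub (hf n) hg, ← integral_const_mul]
  exact norm_integral_le_of_norm_le ((hd n).const_mul C) (h n)

/-- `loc_approx` with `ε = 1 / (n + 1)`; `X` is bounded on Lipschitz functions (`Loc.bdd`),
`|F ^ 2 - W ^ 2| ≤ 2 B |F - W|`; pass to the limit (`0 ≤ rb P X` by `Good.rp`). -/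
theorem rp_low (h : Good P) (hX : Loc S X) (hS : ∀ x ∈ S, 0 ≤ x.2) {W : Cfg → ℝ}
    (hW : StronglyMeasurable[low] W) {B : ℝ} (hB : ∀ᵐ k ∂P, |W k| ≤ B) :
    (∫ k, X k * W k ∂P) ^ 2 ≤ rb P X * ∫ k, W k ^ 2 ∂P := by
  choose T F h1 h2 h3 h4 using fun n : ℕ =>
    loc_approx (h.lip.mono fun _ k => k.2) hW hB (Nat.one_div_pos_of_nat (α := ℝ) (n := n))
  obtain ⟨C, hC⟩ := hX.bdd
  have hm : AEStronglyMeasurable W P := (hW.mono low_le).aestronglyMeasurable
  have iW : Integrable W P := Integrable.of_bound hm B hB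
  have iX : AEStronglyMeasurable X P := hX.meas.aestronglyMeasurable
  have hd : ∀ n, Integrable (fun k => |F n k - W k|) P := fun n => (((h1 n).int h.lip).sub iW).abs
  have t1 := hb_lim (f := fun n k => X k * F n k) (g := fun k => X k * W k) (abs_nonneg C)
    (fun n => (hX.comp₂ (h1 n) (· * ·)).int h.lip)
    (iW.bdd_mul iX (h.lip.mono fun k hk => hC k hk.1)) hd (fun n => h.lip.mono fun k hk => by
      rw [← mul_sub, abs_mul]
      exact mul_le_mul_of_nonneg_right ((hC k hk.1).trans (le_abs_self C)) (abs_nonneg _)) h4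
  have t2 := hb_lim (f := fun n k => F n k ^ 2) (g := fun k => W k ^ 2) (abs_nonneg (B + B))
    (fun n => ((h1 n).comp (· ^ 2)).int h.lip)
    ((iW.bdd_mul hm hB).congr (ae_of_all _ fun k => (sq (W k)).symm)) hd (fun n => by
      filter_upwards [h3 n, hB] with k k1 k2
      rw [sq_sub_sq, abs_mul]
      exact mul_le_mul_of_nonneg_right (((abs_add_le _ _).trans (add_le_add k1 k2)).trans
        (le_abs_self _)) (abs_nonneg _)) h4
  exact le_of_tendsto_of_tendsto' (t1.pow 2) (t2.const_mul _) fun n =>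
    rp_cs h hX hS (h1 n) (h2 n)

end Vale.Agent.P153H
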