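import Vale.Agent.P153H.HE
import Vale.Agent.P153H.HD
import Vale.Agent.P153.T5

/-! Odd test functions are close to odd parts of Laplacians from above. -/

open MeasureTheory Filter Topology Set

noncomputable section

namespace Vale.Agent.P153H

open Vale.Agent.P153

theorem hf_eq (u : ℂ → ℝ) :
    odd u = fun z => 1 * u z + (-1) * u ((starRingEnd ℂ) z) := by
  funext z
  simp only [odd]
  ring

theorem hf_test {u : ℂ → ℝ} (hu : Cc u) : Test (odd u) := by
  have h : Cc (odd u) := by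
    rw [hf_eq]
    exact hu.lin hu.conj 1 (-1)
  refine ⟨h.1, h.2, ?_⟩
  simp only [odd]
  rw [integral_sub hu.int hu.conj.int, integral_conj', sub_self]

theorem TestH.odd {f : ℂ → ℝ} (hf : TestH f) : Test (odd f) := hf_test ⟨hf.1, hf.2.1⟩

theorem Test.odd' {f : ℂ → ℝ} (hf : Test f) : Test (odd f) := hf_test hf.cc

/-- `cov_cs`, `cov_lin`, `cov_symm`. -/
theorem cov_add_le {f g : ℂ → ℝ} (hf : Test f) (hg : Test g) (a b : ℝ) :
    cov (fun z => a * f z + b * g z) (fun z => a * f z + b * g z) ≤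
      2 * a ^ 2 * cov f f + 2 * b ^ 2 * cov g g := by
  have h := cov_nonneg fun z => a * f z + (-b) * g z
  rw [t2_sq hf hg] at h ⊢
  nlinarith

/-- `lap_dense` gives `u₀` for `F = odd f`; `u₁ = odd u₀ / 2` is odd and
`F - lap u₁ = (r - cj r) / 2`, `r = F - lap u₀` (`lap_lin`, `lap_conj`, `cov_cj`). Then
`u = chi η * u₁` and `u₁ - odd u = (1 - chi z - chi (conj z)) u₁`; `cut_small`. -/
theorem odd_dense {f : ℂ → ℝ} (hf : TestH f) {ε : ℝ} (hε : 0 < ε) :
    ∃ u, Cc u ∧ tsupport u ⊆ {z | 0 < z.im} ∧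
      cov (fun z => odd f z - odd (lap u) z) (fun z => odd f z - odd (lap u) z) ≤ ε := by
  have hF : Test (odd f) := hf.odd
  obtain ⟨u₀, h0, e0⟩ := lap_dense hF (ε := ε / 4) (by positivity)
  have hr : Test fun z => odd f z - lap u₀ z := hF.sub h0.test_lap
  have h1 := h0.lin h0.conj (1 / 2) (-(1 / 2))
  have l1 := lap_lin h0 h0.conj (1 / 2) (-(1 / 2))
  rw [lap_conj h0] at l1
  have o1 : ∀ z, (fun z => 1 / 2 * u₀ z + -(1 / 2) * u₀ ((starRingEnd ℂ) z)) ((starRingEnd ℂ) z) =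
      -(fun z => 1 / 2 * u₀ z + -(1 / 2) * u₀ ((starRingEnd ℂ) z)) z := fun z => by
    simp only [Complex.conj_conj]
    ring
  generalize (fun z => 1 / 2 * u₀ z + -(1 / 2) * u₀ ((starRingEnd ℂ) z)) = u₁ at h1 l1 o1
  have e1 : cov (fun z => odd f z - lap u₁ z) (fun z => odd f z - lap u₁ z) ≤ ε / 4 := by
    have h2 := cov_add_le hr hr.conj (1 / 2) (-(1 / 2))
    have h3 := cov_cj (fun z => odd f z - lap u₀ z) (fun z => odd f z - lap u₀ z)
    have e : (fun z => odd f z - lap u₁ z) = fun z => 1 / 2 * (odd f z - lap u₀ z) +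
        -(1 / 2) * (odd f ((starRingEnd ℂ) z) - lap u₀ ((starRingEnd ℂ) z)) := by
      funext z
      rw [l1]
      simp only [odd, Complex.conj_conj]
      ring
    rw [e]
    refine h2.trans ?_
    have h4 : cov (fun z => odd f ((starRingEnd ℂ) z) - lap u₀ ((starRingEnd ℂ) z))
        (fun z => odd f ((starRingEnd ℂ) z) - lap u₀ ((starRingEnd ℂ) z)) ≤ ε / 4 :=
      h3.trans_le e0
    linarith
  obtain ⟨η, hη, e2⟩ := cut_small h1 o1 (ε := ε / 4) (by positivity)
  have hu : Cc fun z => chi η z * u₁ z := h1.mul (chi_smooth η)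
  have ht := hf_test hu
  refine ⟨_, hu, (tsupport_mul_subset_left (f := chi η) (g := u₁)).trans (chi_supp hη), ?_⟩
  have ew : (fun z => (1 - chi η z - chi η ((starRingEnd ℂ) z)) * u₁ z) =
      fun z => 1 * u₁ z + (-1) * odd (fun z => chi η z * u₁ z) z := by
    funext z
    simp only [odd, o1]
    ring
  have hw : Cc fun z => 1 * u₁ z + (-1) * odd (fun z => chi η z * u₁ z) z := h1.lin ht.cc 1 (-1)
  have l2 : lap (odd fun z => chi η z * u₁ z) = odd (lap fun z => chi η z * u₁ z) := by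
    rw [hf_eq, hf_eq, lap_lin hu hu.conj, lap_conj hu]
  rw [ew] at e2
  have h5 := cov_add_le (hF.sub h1.test_lap) hw.test_lap 1 1
  have e3 : (fun z => odd f z - odd (lap fun z => chi η z * u₁ z) z) =
      fun z => 1 * (odd f z - lap u₁ z) +
        1 * lap (fun z => 1 * u₁ z + (-1) * odd (fun z => chi η z * u₁ z) z) z := by
    funext z
    rw [lap_lin h1 ht.cc, l2]
    ring
  rw [e3]
  linarith

/-- `cov (odd y) (odd y) = 2 cov y y` for `y = lap u` (`cov_mirror`, `cov_cj`). -/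
theorem covH_lap {u : ℂ → ℝ} (hu : Cc u) (hs : tsupport u ⊆ {z | 0 < z.im}) :
    covH (lap u) (lap u) = cov (lap u) (lap u) := by
  have h1 : cov (lap u) (fun z => lap u ((starRingEnd ℂ) z)) = 0 := cov_mirror hu hs
  have h2 : cov (fun z => lap u ((starRingEnd ℂ) z)) (fun z => lap u ((starRingEnd ℂ) z)) =
      cov (lap u) (lap u) := cov_cj _ _
  rw [covH, hf_eq, t2_sq hu.test_lap hu.test_lap.conj, h1, h2]
  ring

end Vale.Agent.P153H
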