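import Vale.Agent.P153H.HF
import Vale.Agent.P153H.HC

/-! The centred field is close to the field of a Laplacian. -/

open MeasureTheory Filter Topology Set

noncomputable section

namespace Vale.Agent.P153H

open Vale.Agent.P153

variable {P : Measure Cfg} [IsProbabilityMeasure P] {σ δ : ℝ} {f u : ℂ → ℝ}

/-- `fld_eq`, `ev`, `Finsupp.sum`, `low_apply`; the weights of `cj f` sit in the rows `j ≤ 0`:
`fld δ (cj f) k = fld δ f (k ∘ rfl0)` (`fld_rfl0`) and `c0b_pos`. -/
theorem fld_low (hδ : 0 < δ) (hf : Cc f) (hs : tsupport f ⊆ {z | 0 < z.im}) :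
    StronglyMeasurable[low] (fld δ (cj f)) := by
  have e : fld δ (cj f) = fun k => ∑ x ∈ (Wt δ f).support, Wt δ f x * (k (rfl0 x) : ℝ) := by
    funext k
    exact (fld_rfl0 f k).symm.trans (fld_eq hδ hf.1.continuous hf.2 _)
  rw [e]
  refine Measurable.stronglyMeasurable (@Finset.measurable_sum _ _ _ _ _ _ low _ _ fun x hx => ?_)
  have h1 : wt δ f x ≠ 0 := by
    rw [← Wt_apply hδ hf.2]
    exact Finsupp.mem_support_iff.1 hx
  have h2 := c0b_pos hδ hs h1
  have h3 : (rfl0 x).2 ≤ 0 := by
    simp only [rfl0]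
    omega
  exact ((measurable_of_countable fun n : ℤ => Wt δ f x * (n : ℝ))).comp (low_apply h3)

/-- As `d3_meas`, `d3_bdd` with `fld_eq_sum`. -/
theorem fld_int (h : Good P) (hδ : 0 < δ) (hf : Cc f) :
    Measurable (fld δ f) ∧ Integrable (fld δ f) P := by
  obtain ⟨R, hR⟩ := d3h_rad (f := fun _ : Unit => f) fun _ => hf.2
  obtain ⟨S, hS'⟩ := fld_eq_sum hδ R
  have hS := (hS' f hf.1.continuous (hR ())).2
  have hm : Measurable (fld δ f) := by
    rw [funext hS]
    exact Finset.measurable_sum _ fun x _ =>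
      ((measurable_of_countable fun n : ℤ => (n : ℝ)).comp (measurable_pi_apply x)).mul_const _
  refine ⟨hm, Integrable.of_bound hm.aestronglyMeasurable
    (∑ x ∈ S, ((|x.1| + |x.2| : ℤ) : ℝ) * |wt δ f x|) ?_⟩
  filter_upwards [h.lip] with k hk
  rw [hS, Real.norm_eq_abs]
  refine (Finset.abs_sum_le_sum_abs _ _).trans (Finset.sum_le_sum fun x _ => ?_)
  rw [abs_mul]
  refine mul_le_mul_of_nonneg_right ?_ (abs_nonneg _)
  have := d3h_lip hk.1 x
  rw [hk.2, sub_zero] at this
  exact_mod_cast this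

theorem fld_sum' (hδ : 0 < δ) {ι : Type} [Fintype ι] (t : ι → ℝ) {F : ι → ℂ → ℝ}
    (hF : ∀ j, Cc (F j)) (k : Cfg) :
    fld δ (fun z => ∑ j, t j * F j z) k = ∑ j, t j * fld δ (F j) k := by
  obtain ⟨R, hR⟩ := d3h_rad fun j => (hF j).2
  obtain ⟨S, hS⟩ := fld_eq_sum hδ R
  have hc := fun j => (hF j).1.continuous
  rw [(hS _ (by fun_prop) fun z hz => ?_).2]
  · simp only [fun j => (hS _ (hc j) (hR j)).2 k, Finset.mul_sum]
    rw [Finset.sum_comm]
    refine Finset.sum_congr rfl fun x _ => ?_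
    simp only [wt, Finset.mul_sum, mul_left_comm (hat _)]
    rw [integral_finsetSum _ fun j _ => (d3h_int δ (hc j) (hF j).2 x).const_mul _,
      Finset.mul_sum]
    exact Finset.sum_congr rfl fun j _ => by rw [integral_const_mul]; ring
  · obtain ⟨j, -, hj⟩ := Finset.exists_ne_zero_of_sum_ne_zero hz
    exact hR j z (right_ne_zero_of_mul hj)

theorem hg_cs {X : Cfg → ℝ} (h1 : Integrable X P) (h2 : Integrable (fun k => X k ^ 2) P) :
    ∫ k, |X k| ∂P ≤ √(∫ k, X k ^ 2 ∂P) := by
  refine Real.le_sqrt_of_sq_le ?_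
  set m := ∫ k, |X k| ∂P with hm
  have i1 : Integrable (fun k => 2 * m * |X k|) P := h1.abs.const_mul _
  have h3 : ∫ k, (2 * m * |X k| - m ^ 2) ∂P ≤ ∫ k, X k ^ 2 ∂P :=
    integral_mono (i1.sub (integrable_const _)) h2 fun k => by
      have h4 := sq_nonneg (|X k| - m)
      have h5 := sq_abs (X k)
      simp only
      nlinarith
  rw [integral_sub i1 (integrable_const _), integral_const_mul, integral_const, probReal_univ,
    one_smul, ← hm] at h3
  linarith

/-- With `y = lap u`, `r = odd f - odd y`: `f = y + r + cj f - cj y`, the last two fields are `low`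
measurable (`condExp_of_stronglyMeasurable`, `condExp_add`, `condExp_sub`), so a.e.
`cen f - fld y = -condExp (fld y) + fld r - condExp (fld r)`. `cond_le` (`fld_loc`, `c0b_pos`),
`integral_abs_condExp_le`, `∫ |fld r| ≤ √(∫ fld r ^ 2)` (`c0c_cs` style, `d3_pow`). -/
theorem cen_close (h : Good P) (hδ : 0 < δ) (hf : TestH f) (hu : Cc u)
    (hs : tsupport u ⊆ {z | 0 < z.im}) :
    ∫ k, |cen P δ f k - fld δ (lap u) k| ∂P ≤ √(rb P (fld δ (lap u))) +
      2 * √(∫ k, fld δ (fun z => odd f z - odd (lap u) z) k ^ 2 ∂P) := by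
  have cf : Cc f := ⟨hf.1, hf.2.1⟩
  have ty : Test (lap u) := hu.test_lap
  have cy : Cc (lap u) := ty.cc
  have sy : tsupport (lap u) ⊆ {z | 0 < z.im} := (tsupport_lap u hu.1).trans hs
  have tr' : Test fun z => odd f z - odd (lap u) z := hf.odd.sub (Test.odd' ty)
  have i1 := (fld_int h hδ cy).2
  have i2 := (fld_int h hδ tr'.cc).2
  have i3 : Integrable (fld δ (cj f)) P := (fld_int h hδ cf.conj).2
  have i4 : Integrable (fld δ (cj (lap u))) P := (fld_int h hδ cy.conj).2
  have e0 : ∀ k, fld δ (fun z => odd f z - odd (lap u) z) k =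
      fld δ f k - fld δ (cj f) k - fld δ (lap u) k + fld δ (cj (lap u)) k := fun k => by
    have h1 := fld_sum' hδ ![1, -1, -1, 1] (F := ![f, cj f, lap u, cj (lap u)])
      (fun j => by
        fin_cases j
        exacts [cf, cf.conj, cy, cy.conj]) k
    have h2 : (fun z => ∑ j, ![1, -1, -1, 1] j * ![f, cj f, lap u, cj (lap u)] j z) =
        fun z => odd f z - odd (lap u) z := by
      funext z
      simp [Fin.sum_univ_four, odd, cj]
      ring
    rw [h2] at h1
    rw [h1]
    simp [Fin.sum_univ_four]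
    ring
  set r := fld δ fun z => odd f z - odd (lap u) z with hr
  have e1 : fld δ f = (fld δ (lap u) + r) + (fld δ (cj f) - fld δ (cj (lap u))) := by
    funext k
    simp only [Pi.add_apply, Pi.sub_apply, e0]
    ring
  have e2 : condExp low P (fld δ (cj f) - fld δ (cj (lap u))) =
      fld δ (cj f) - fld δ (cj (lap u)) :=
    condExp_of_stronglyMeasurable low_le ((fld_low hδ cf hf.2.2).sub (fld_low hδ cy sy))
      (i3.sub i4)
  have e3 := condExp_add (i1.add i2) (i3.sub i4) low
  rw [← e1, e2] at e3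
  have j1 : Integrable (fun k => |condExp low P (fld δ (lap u)) k|) P := integrable_condExp.abs
  have j2 : Integrable (fun k => |condExp low P r k|) P := integrable_condExp.abs
  have j3 : Integrable (fun k => |r k| + |condExp low P r k|) P := i2.abs.add j2
  have b1 : ∫ k, |cen P δ f k - fld δ (lap u) k| ∂P ≤
      ∫ k, (|condExp low P (fld δ (lap u)) k| + (|r k| + |condExp low P r k|)) ∂P := by
    refine integral_mono_of_nonneg (Eventually.of_forall fun k => abs_nonneg _) (j1.add j3) ?_
    filter_upwards [e3, condExp_add i1 i2 low] with k h1 h2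
    simp only [Pi.add_apply, Pi.sub_apply] at h1 h2
    have h3 : cen P δ f k - fld δ (lap u) k =
        -condExp low P (fld δ (lap u)) k + (r k - condExp low P r k) := by
      rw [cen, h1, h2, e0]
      ring
    rw [h3]
    refine (abs_add_le _ _).trans (add_le_add (abs_neg _).le (abs_sub _ _))
  rw [integral_add j1 j3, integral_add i2.abs j2] at b1
  have b2 := cond_le h (fld_loc hδ ty) fun x hx => c0b_pos hδ sy (by
    rw [← Wt_apply hδ cy.2]
    exact Finsupp.mem_support_iff.1 hx)
  have b3 : ∫ k, |condExp low P r k| ∂P ≤ ∫ k, |r k| ∂P := integral_abs_condExp_le r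
  have b4 := hg_cs i2 (d3_pow h hδ tr' 2)
  linarith

end Vale.Agent.P153H
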