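import Vale.Agent.P153H.HM
import Vale.Agent.P153.Main

/-! Assembly. -/

open MeasureTheory Filter Topology Set ProbabilityTheory

noncomputable section

namespace Vale.Agent.P153H

open Vale.Agent.P153

variable {P : Measure Cfg} [IsProbabilityMeasure P] {σ δ : ℝ}

theorem testH_sum {ι : Type} [Fintype ι] (t : ι → ℝ) {f : ι → ℂ → ℝ} (hf : ∀ j, TestH (f j)) :
    TestH fun z => ∑ j, t j * f j z := by
  have hc := Cc.sum Finset.univ (F := fun j z => t j * f j z) fun j _ =>
    (hf j).cc.mul contDiff_const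
  refine ⟨hc.1, hc.2, ?_⟩
  refine (closure_minimal (t := ⋃ j, tsupport (f j)) (fun z hz => ?_)
    (isClosed_iUnion_of_finite fun j => isClosed_tsupport _)).trans
    (iUnion_subset fun j => (hf j).2.2)
  obtain ⟨j, -, hj⟩ := Finset.exists_ne_zero_of_sum_ne_zero hz
  exact mem_iUnion.2 ⟨j, subset_tsupport _ (right_ne_zero_of_mul hj)⟩

theorem cen_sum (h : Good P) (hδ : 0 < δ) {ι : Type} [Fintype ι] (t : ι → ℝ) {f : ι → ℂ → ℝ}
    (hf : ∀ j, TestH (f j)) :
    ∀ᵐ k ∂P, cen P δ (fun z => ∑ j, t j * f j z) k = ∑ j, t j * cen P δ (f j) k := by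
  have e : fld δ (fun z => ∑ j, t j * f j z) = ∑ j, t j • fld δ (f j) := by
    funext k
    simp [fld_sum' hδ t fun j => (hf j).cc]
  have h1 := condExp_finsetSum (μ := P) (s := Finset.univ) (f := fun j => t j • fld δ (f j))
    (fun j _ => (fld_int h hδ (hf j).cc).2.smul (t j)) low
  have h2 : ∀ᵐ k ∂P, ∀ j, condExp low P (t j • fld δ (f j)) k =
      (t j • condExp low P (fld δ (f j))) k :=
    ae_all_iff.2 fun j => condExp_smul (t j) _ low
  filter_upwards [h1, h2] with k k1 k2
  simp only [cen, e, k1, Finset.sum_apply, k2, Pi.smul_apply, smul_eq_mul, mul_sub,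
    Finset.sum_sub_distrib]

theorem toGFFH (h : Good P) (hC : CovT P σ) (hχ : Chi P σ) : ToGFFH P σ := by
  intro m f hf
  set S : Matrix (Fin m) (Fin m) ℝ := Matrix.of fun j k => σ ^ 2 * covH (f j) (f k) with hS
  have hq : ∀ t : Fin m → ℝ, t ⬝ᵥ S.mulVec t =
      σ ^ 2 * covH (fun z => ∑ j, t j * f j z) fun z => ∑ j, t j * f j z := fun t => by
    have e : odd (fun z => ∑ j, t j * f j z) = fun z => ∑ j, t j * odd (f j) z := by
      funext z
      simp only [odd, mul_sub, Finset.sum_sub_distrib]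
    rw [covH, e, ← mul_div_assoc, d3_cov h hC t fun j => (hf j).odd]
    simp only [hS, dotProduct, Matrix.mulVec, Matrix.of_apply, Finset.mul_sum, covH,
      Finset.sum_div]
    exact Finset.sum_congr rfl fun _ _ => Finset.sum_congr rfl fun _ _ => by ring
  have hP : S.PosSemidef := by
    refine Matrix.PosSemidef.of_dotProduct_mulVec_nonneg ?_ fun t => ?_
    · ext j k
      simp [hS, covH, cov_symm (odd (f j))]
    · rw [star_trivial, hq, covH]
      have := cov_nonneg (odd fun z => ∑ j, t j * f j z)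
      positivity
  refine ⟨hP, fun ε A hε hA hA' φ => ?_⟩
  have hp : ∀ δ, 0 < P.real (A δ) := fun δ => hε.trans_le (hA' δ)
  have hne : ∀ δ, P (A δ) ≠ 0 := fun δ h0 => (hp δ).ne' (by simp [measureReal_def, h0])
  have ip : ∀ δ, IsProbabilityMeasure (cond P (A δ)) := fun δ => cond_isProbabilityMeasure (hne δ)
  set Y : ℝ → Cfg → EuclideanSpace ℝ (Fin m) :=
    fun δ ω => WithLp.toLp 2 fun j => cen P δ (f j) ω with hY
  have mY : ∀ δ, 0 < δ → Measurable (Y δ) := fun δ hδ =>
    (WithLp.measurable_toLp 2 _).comp (measurable_pi_lambda _ fun j => cen_meas h hδ (hf j).cc)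
  refine tendsto_iff_seq_tendsto.2 fun u hu => ?_
  have hpos : ∀ᶠ n in atTop, 0 < u n := hu.eventually self_mem_nhdsWithin
  set u' : ℕ → ℝ := fun n => if 0 < u n then u n else 1 with hu'
  have h0 : ∀ n, 0 < u' n := fun n => by
    simp only [hu']
    split_ifs with h
    exacts [h, one_pos]
  have he : u' =ᶠ[atTop] u := hpos.mono fun n h => if_pos h
  have hu2 : Tendsto u' atTop (𝓝[>] 0) := hu.congr' he.symm
  let μ : ℕ → ProbabilityMeasure (EuclideanSpace ℝ (Fin m)) := fun n =>
    ⟨(cond P (A (u' n))).map (Y (u' n)),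
      Measure.isProbabilityMeasure_map (mY _ (h0 n)).aemeasurable⟩
  let μ₀ : ProbabilityMeasure (EuclideanSpace ℝ (Fin m)) :=
    ⟨multivariateGaussian 0 S, inferInstance⟩
  have hT : Tendsto μ atTop (𝓝 μ₀) := by
    refine ProbabilityMeasure.tendsto_iff_tendsto_charFun.2 fun t => ?_
    have h1 := (half_scalar h hC hχ (testH_sum t hf) hA).comp hu2
    set c := Real.exp
      (-(σ ^ 2 * covH (fun z => ∑ j, t j * f j z) (fun z => ∑ j, t j * f j z) / 2)) with hc
    have e1 : charFun (μ₀ : Measure (EuclideanSpace ℝ (Fin m))) t = (c : ℂ) := by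
      change charFun (multivariateGaussian 0 S) t = _
      rw [charFun_multivariateGaussian hP, hc, ← hq]
      simp
    rw [e1, tendsto_iff_norm_sub_tendsto_zero]
    have h2 := (tendsto_zero_iff_norm_tendsto_zero.1 h1).const_mul ε⁻¹
    rw [mul_zero] at h2
    refine squeeze_zero (fun _ => norm_nonneg _) (fun n => ?_) h2
    have e2 : charFun (μ n : Measure (EuclideanSpace ℝ (Fin m))) t = ((P.real (A (u' n)))⁻¹ : ℝ) *
        ∫ k in A (u' n), Complex.exp (cen P (u' n) (fun z => ∑ j, t j * f j z) k * Complex.I) ∂P := by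
      change charFun ((cond P (A (u' n))).map (Y (u' n))) t = _
      rw [charFun_apply, integral_map (mY _ (h0 n)).aemeasurable (by fun_prop), ProbabilityTheory.cond,
        integral_smul_measure, ENNReal.toReal_inv, Complex.real_smul]
      congr 1
      refine integral_congr_ae (ae_restrict_of_ae ?_)
      filter_upwards [cen_sum h (h0 n) t hf] with ω hω
      simp only [hω, hY, PiLp.inner_apply]
      simp
    have e3 : (c : ℂ) = ((P.real (A (u' n)))⁻¹ : ℝ) * ((c * P.real (A (u' n)) : ℝ) : ℂ) := by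
      rw [← Complex.ofReal_mul]
      congr 1
      have := (hp (u' n)).ne'
      field_simp
    rw [e2, e3, ← mul_sub, norm_mul, Complex.norm_real, Real.norm_of_nonneg (by positivity)]
    exact mul_le_mul_of_nonneg_right (inv_anti₀ hε (hA' _)) (norm_nonneg _)
  have h2 := ProbabilityMeasure.tendsto_iff_forall_integral_tendsto.1 hT φ
  refine h2.congr' (he.mono fun n hn => ?_)
  change ∫ x, φ x ∂(cond P (A (u' n))).map (Y (u' n)) = _
  rw [integral_map (mY _ (h0 n)).aemeasurable φ.continuous.aestronglyMeasurable, hn]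
  rfl

theorem main_half (P : Measure Cfg) [IsProbabilityMeasure P] (hG : Good P) :
    ∃ σ : ℝ, 0 ≤ σ ∧ ToGFF P σ ∧ ToGFFH P σ ∧ LogVar P σ := by
  have hM := mom_of_good hG
  obtain ⟨σ, h0, hC, hV⟩ := covT_of_good hG
  have hW : ∀ U : Ultrafilter ℝ, (U : Filter ℝ) ≤ 𝓝[>] 0 → ∃ S, Lim σ S ∧
      (∀ l, Tests l → Tendsto (fun δ => mom P δ l) U (𝓝 (S l))) ∧ ∀ f, Test f → ∀ n : ℕ,
        S (List.replicate (n + 2) f) = (n + 1) * (σ ^ 2 * cov f f) * S (List.replicate n f) :=
    fun U hU => by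
      obtain ⟨S, hS, hl⟩ := lim_of_covT hG hM hC U hU
      obtain ⟨T, hT⟩ := mix_of_sd hS (sd_of_local hS (local_of_lim hS))
      exact ⟨S, hS, hl, pow_of_shell hS hT (shell hG hM hC U hU hl hT)⟩
  refine ⟨σ, h0, toGFF_of_mom hG hM hC hW, toGFFH hG hC fun f hf => ?_, hV⟩
  have h1 := (Complex.continuous_re.tendsto _).comp (d3_scalar hG hW hf)
  rw [Complex.ofReal_re] at h1
  refine h1.congr' ?_
  filter_upwards [self_mem_nhdsWithin] with δ hδ
  have hi : Integrable (fun k => Complex.exp (fld δ f k * Complex.I)) P :=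
    Integrable.of_bound (Complex.measurable_exp.comp
      ((Complex.measurable_ofReal.comp (d3_meas hδ hf)).mul_const _)).aestronglyMeasurable 1
      (Eventually.of_forall fun ω => (Complex.norm_exp_ofReal_mul_I _).le)
  have := integral_re hi
  simp only [RCLike.re_to_complex, Complex.exp_ofReal_mul_I_re] at this
  exact this.symm

end Vale.Agent.P153H
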