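import Vale.Agent.P153.Stmt

/-! The Dirichlet Gaussian free field of the upper half plane, given the heights below. -/

open MeasureTheory Filter Topology

noncomputable section

namespace Vale.Agent.P153H

open Vale.Agent.P153

/-- The events determined by the heights at the vertices of the closed lower half plane. -/
def low : MeasurableSpace Cfg :=
  MeasurableSpace.comap (fun (k : Cfg) (x : {x : ℤ × ℤ // x.2 ≤ 0}) => k x) inferInstance

/-- Smooth functions with compact support in the open upper half plane. -/
def TestH (f : ℂ → ℝ) : Prop :=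
  ContDiff ℝ (⊤ : ℕ∞) f ∧ HasCompactSupport f ∧ tsupport f ⊆ {z | 0 < z.im}

/-- A function minus its mirror image in the real line. -/
def odd (f : ℂ → ℝ) (z : ℂ) : ℝ := f z - f ((starRingEnd ℂ) z)

/-- The form of the Dirichlet Green function of the upper half plane, by the method of images. -/
def covH (f g : ℂ → ℝ) : ℝ := cov (odd f) (odd g) / 2

/-- The tested height minus its conditional mean given the heights in the lower half plane. -/
def cen (P : Measure Cfg) (δ : ℝ) (f : ℂ → ℝ) (k : Cfg) : ℝ :=
  fld δ f k - condExp low P (fld δ f) k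

/-- Conditionally on any events of the lower half plane of probability bounded below, the centred
heights converge in law to `σ` times the Dirichlet Gaussian free field of the upper half plane. -/
def ToGFFH (P : Measure Cfg) (σ : ℝ) : Prop :=
  ∀ (m : ℕ) (f : Fin m → ℂ → ℝ), (∀ j, TestH (f j)) →
    (Matrix.of fun j k => σ ^ 2 * covH (f j) (f k)).PosSemidef ∧
    ∀ (ε : ℝ) (A : ℝ → Set Cfg), 0 < ε → (∀ δ, MeasurableSet[low] (A δ)) →
      (∀ δ, ε ≤ P.real (A δ)) → ∀ φ : BoundedContinuousFunction (EuclideanSpace ℝ (Fin m)) ℝ,
        Tendsto (fun δ => ∫ k, φ (WithLp.toLp 2 fun j => cen P δ (f j) k)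
          ∂(ProbabilityTheory.cond P (A δ))) (𝓝[>] 0)
          (𝓝 (∫ x, φ x ∂(ProbabilityTheory.multivariateGaussian 0
            (Matrix.of fun j k => σ ^ 2 * covH (f j) (f k)))))

end Vale.Agent.P153H
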